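import Mathlib

/-!
P097, (tan): the Marcinkiewicz form of good windows (repair of (P3) of the pick lemma).
`A` is the set of labels, `B` the box, `Metric.infDist x A` the distance of a label from `A`.
`Jm A B u` is the Marcinkiewicz integral of exponent one at a label `u`; `Mz A B v ρ` the slope
budget of a window of depth `ρ` at the label `v`.
-/

open MeasureTheory Set Filter Topology
open scoped ENNReal

namespace Vale.Agent.P097.H315.Marc

/-- Marcinkiewicz integral at `u`. -/
noncomputable def Jm (A B : Set ℝ) (u : ℝ) : ℝ≥0∞ :=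
  ∫⁻ x in B, ENNReal.ofReal (Metric.infDist x A / (x - u) ^ 2)

/-- slope budget of a window of depth `ρ` over the label `v`. -/
noncomputable def Mz (A B : Set ℝ) (v ρ : ℝ) : ℝ≥0∞ :=
  ∫⁻ x in B, ENNReal.ofReal (Metric.infDist x A / (ρ + |x - v|) ^ 2)

theorem int_kernel {δ : ℝ} (hδ : 0 < δ) (x : ℝ) :
    ∫⁻ u, ENNReal.ofReal (2 * δ / (δ ^ 2 + (x - u) ^ 2)) = ENNReal.ofReal (2 * Real.pi) := by
  have h1 : ∀ u, 2 * δ / (δ ^ 2 + (x - u) ^ 2) = (2 / δ) * (1 + ((u - x) / δ) ^ 2)⁻¹ := by
    intro u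
    have h2 : 0 < δ ^ 2 + (x - u) ^ 2 := by positivity
    have h3 : 0 < 1 + ((u - x) / δ) ^ 2 := by positivity
    have h4 : (1 + ((u - x) / δ) ^ 2) = (δ ^ 2 + (x - u) ^ 2) / δ ^ 2 := by
      field_simp
      ring
    rw [h4, inv_div]
    field_simp
  have hint : Integrable (fun u : ℝ => (1 + ((u - x) / δ) ^ 2)⁻¹) := by
    have := (integrable_inv_one_add_sq.comp_div hδ.ne').comp_sub_right x
    exact this
  simp_rw [h1]
  rw [← ofReal_integral_eq_lintegral_ofReal (hint.const_mul _)]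
  · congr 1
    rw [integral_const_mul]
    have h5 : ∫ u : ℝ, (1 + ((u - x) / δ) ^ 2)⁻¹ = ∫ u : ℝ, (1 + (u / δ) ^ 2)⁻¹ :=
      integral_sub_right_eq_self (fun u : ℝ => (1 + (u / δ) ^ 2)⁻¹) x
    rw [h5]
    have h6 := Measure.integral_comp_div (fun u : ℝ => (1 + u ^ 2)⁻¹) δ
    rw [h6, integral_univ_inv_one_add_sq, abs_of_pos hδ]
    simp only [smul_eq_mul]
    field_simp
  · exact Eventually.of_forall fun u => by positivity

theorem meas_f (A : Set ℝ) :
    Measurable (fun p : ℝ × ℝ => ENNReal.ofReal (Metric.infDist p.2 A / (p.2 - p.1) ^ 2)) := by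
  apply ENNReal.measurable_ofReal.comp
  apply Measurable.div
  · exact (Metric.continuous_infDist_pt A).measurable.comp measurable_snd
  · fun_prop

theorem inner_le {A : Set ℝ} (hA : MeasurableSet A) (x : ℝ) :
    ∫⁻ u in A, ENNReal.ofReal (Metric.infDist x A / (x - u) ^ 2) ≤
      ENNReal.ofReal (2 * Real.pi) := by
  rcases (Metric.infDist_nonneg (x := x) (s := A)).eq_or_lt with h0 | h0
  · rw [← h0]; simp
  · calc ∫⁻ u in A, ENNReal.ofReal (Metric.infDist x A / (x - u) ^ 2)
        ≤ ∫⁻ u in A, ENNReal.ofReal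
            (2 * Metric.infDist x A / (Metric.infDist x A ^ 2 + (x - u) ^ 2)) := by
          have hm : ∀ u ∈ A, ENNReal.ofReal (Metric.infDist x A / (x - u) ^ 2) ≤ ENNReal.ofReal
            (2 * Metric.infDist x A / (Metric.infDist x A ^ 2 + (x - u) ^ 2)) := by
            intro u hu
            apply ENNReal.ofReal_le_ofReal
            have h1 : Metric.infDist x A ≤ |x - u| := by
              have := Metric.infDist_le_dist_of_mem (x := x) hu
              rwa [Real.dist_eq] at this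
            have h2 : Metric.infDist x A ^ 2 ≤ (x - u) ^ 2 := by
              rw [← sq_abs (x - u)]
              exact pow_le_pow_left₀ h0.le h1 2
            have h3 : 0 < (x - u) ^ 2 := lt_of_lt_of_le (by positivity) h2
            rw [div_le_div_iff₀ h3 (by positivity)]
            nlinarith
          exact setLIntegral_mono' hA hm
      _ ≤ ∫⁻ u, ENNReal.ofReal
            (2 * Metric.infDist x A / (Metric.infDist x A ^ 2 + (x - u) ^ 2)) :=
          setLIntegral_le_lintegral _ _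
      _ = ENNReal.ofReal (2 * Real.pi) := int_kernel h0 x

/-- **Marcinkiewicz**: `Jm A B u` is finite for almost every `u` of `A`. -/
theorem J_ae {A B : Set ℝ} (hA : MeasurableSet A) (hB : volume B < ∞) :
    ∀ᵐ u ∂(volume.restrict A), Jm A B u < ∞ := by
  have hm := meas_f A
  have h1 : ∫⁻ u in A, Jm A B u ≤ ENNReal.ofReal (2 * Real.pi) * volume B := by
    unfold Jm
    rw [lintegral_lintegral_swap hm.aemeasurable]
    calc ∫⁻ x in B, ∫⁻ u in A, ENNReal.ofReal (Metric.infDist x A / (x - u) ^ 2)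
        ≤ ∫⁻ _ in B, ENNReal.ofReal (2 * Real.pi) := lintegral_mono fun x => inner_le hA x
      _ = ENNReal.ofReal (2 * Real.pi) * volume B := by simp
  have h2 : ∫⁻ u in A, Jm A B u ≠ ∞ :=
    (lt_of_le_of_lt h1 (ENNReal.mul_lt_top ENNReal.ofReal_lt_top hB)).ne
  exact ae_lt_top (hm.lintegral_prod_right') h2

theorem Jm_mono (A : Set ℝ) {B B' : Set ℝ} (h : B' ⊆ B) (u : ℝ) : Jm A B' u ≤ Jm A B u :=
  lintegral_mono_set h

/-- absolute continuity: on small boxes the Marcinkiewicz integral is small. -/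
theorem J_small {A B : Set ℝ} {u : ℝ} (hJ : Jm A B u < ∞) {e : ℝ≥0∞} (he : e ≠ 0) :
    ∃ r > 0, Jm A (B ∩ Metric.ball u r) u < e := by
  obtain ⟨d, hd, h⟩ := exists_pos_setLIntegral_lt_of_measure_lt
    (μ := volume.restrict B)
    (f := fun x => ENNReal.ofReal (Metric.infDist x A / (x - u) ^ 2)) hJ.ne he
  obtain ⟨r, hr, hrd⟩ : ∃ r : ℝ, 0 < r ∧ volume (Metric.ball u r) < d := by
    rcases eq_or_ne d ∞ with h1 | h1
    · exact ⟨1, one_pos, by rw [h1]; simp⟩
    · have h2 : 0 < d.toReal := ENNReal.toReal_pos hd.ne' h1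
      refine ⟨d.toReal / 4, by positivity, ?_⟩
      rw [Real.volume_ball]
      rw [ENNReal.ofReal_lt_iff_lt_toReal (by positivity) h1]
      linarith
  refine ⟨r, hr, ?_⟩
  have h3 := h (Metric.ball u r)
    (lt_of_le_of_lt (Measure.restrict_apply_le _ _) hrd)
  rw [Measure.restrict_restrict Metric.isOpen_ball.measurableSet, inter_comm] at h3
  exact h3

/-- near and far part of the slope budget. -/
theorem Mz_le {A B : Set ℝ} {u v ρ D : ℝ} (hρ : 0 < ρ)
    (hD : |u - v| ≤ D) (hD0 : 0 < D) :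
    Mz A B v ρ ≤ ENNReal.ofReal (1 / ρ ^ 2) *
      (∫⁻ x in B ∩ {x | |x - u| < 2 * D}, ENNReal.ofReal (Metric.infDist x A)) +
      4 * Jm A B u := by
  set N : Set ℝ := {x | |x - u| < 2 * D} with hN
  have hNm : MeasurableSet N := by
    apply measurableSet_lt
    · fun_prop
    · fun_prop
  have hpt : ∀ x, ENNReal.ofReal (Metric.infDist x A / (ρ + |x - v|) ^ 2) ≤
      N.indicator (fun x => ENNReal.ofReal (1 / ρ ^ 2) * ENNReal.ofReal (Metric.infDist x A)) x +
      4 * ENNReal.ofReal (Metric.infDist x A / (x - u) ^ 2) := by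
    intro x
    have hd := Metric.infDist_nonneg (x := x) (s := A)
    have hv := abs_nonneg (x - v)
    by_cases hx : x ∈ N
    · rw [indicator_of_mem hx]
      refine le_add_right ?_
      rw [← ENNReal.ofReal_mul (by positivity)]
      apply ENNReal.ofReal_le_ofReal
      rw [div_mul_eq_mul_div, one_mul]
      apply div_le_div_of_nonneg_left hd (by positivity)
      exact pow_le_pow_left₀ hρ.le (by linarith) 2
    · rw [indicator_of_notMem hx, zero_add]
      have hx' : 2 * D ≤ |x - u| := not_lt.mp hx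
      have h4 : (4 : ℝ≥0∞) = ENNReal.ofReal 4 := by norm_num
      rw [h4, ← ENNReal.ofReal_mul (by norm_num)]
      apply ENNReal.ofReal_le_ofReal
      have h1 : |x - u| / 2 ≤ ρ + |x - v| := by
        have h2 : |x - u| ≤ |x - v| + |u - v| := by
          rw [abs_sub_comm u v]
          calc |x - u| = |(x - v) + (v - u)| := by ring_nf
            _ ≤ _ := abs_add_le _ _
        linarith
      have h3 : 0 < |x - u| := by linarith
      have h5 : (x - u) ^ 2 / 4 ≤ (ρ + |x - v|) ^ 2 := by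
        have := pow_le_pow_left₀ (by positivity) h1 2
        rw [div_pow, sq_abs] at this
        linarith
      have h6 : 0 < (x - u) ^ 2 := by
        rw [← sq_abs]; positivity
      rw [mul_div_assoc', div_le_div_iff₀ (by positivity) h6]
      nlinarith
  calc Mz A B v ρ ≤ ∫⁻ x in B, (N.indicator (fun x => ENNReal.ofReal (1 / ρ ^ 2) *
          ENNReal.ofReal (Metric.infDist x A)) x +
          4 * ENNReal.ofReal (Metric.infDist x A / (x - u) ^ 2)) := lintegral_mono hpt
    _ = (∫⁻ x in B, N.indicator (fun x => ENNReal.ofReal (1 / ρ ^ 2) *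
          ENNReal.ofReal (Metric.infDist x A)) x) +
          ∫⁻ x in B, 4 * ENNReal.ofReal (Metric.infDist x A / (x - u) ^ 2) := by
        apply lintegral_add_left
        apply Measurable.indicator _ hNm
        exact (measurable_const.mul (ENNReal.measurable_ofReal.comp
          (Metric.continuous_infDist_pt A).measurable))
    _ = _ := by
        congr 1
        · rw [lintegral_indicator hNm, Measure.restrict_restrict hNm, inter_comm,
            lintegral_const_mul]
          exact ENNReal.measurable_ofReal.comp (Metric.continuous_infDist_pt A).measurable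
        · rw [lintegral_const_mul]
          · rfl
          · apply ENNReal.measurable_ofReal.comp
            apply Measurable.div
            · exact (Metric.continuous_infDist_pt A).measurable
            · fun_prop

/-- the penalty of a bad window (`Pen = a log (D/ρp) + 2 log (D/ρ)`). -/
theorem bad_pen {A B : Set ℝ} (hB : MeasurableSet B) {a u v ρ ρp D η : ℝ} (ha : 0 < a)
    (hρ : 0 < ρ) (hρp : 0 < ρp) (hD : |u - v| + ρ + ρp ≤ D) (hη : 0 < η)
    (hJ : 8 * Jm A B u ≤ ENNReal.ofReal η) (hbad : ENNReal.ofReal η ≤ Mz A B v ρ) :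
    ENNReal.ofReal ((ρp / D) ^ a * (ρ / D) ^ 2) ≤ ENNReal.ofReal (2 / η) *
      ∫⁻ x in B, ENNReal.ofReal (Metric.infDist x A *
        (ρp ^ a / (max ρp (|x - u| / 2)) ^ (a + 2))) := by
  have habs := abs_nonneg (u - v)
  have hD0 : 0 < D := by linarith
  set N : Set ℝ := {x | |x - u| < 2 * D} with hN
  have hNm : MeasurableSet N := by
    apply measurableSet_lt
    · fun_prop
    · fun_prop
  set I : ℝ≥0∞ := ∫⁻ x in B ∩ N, ENNReal.ofReal (Metric.infDist x A) with hI
  have h1 := Mz_le (A := A) (B := B) hρ (by linarith : |u - v| ≤ D) hD0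
  have h2 : ENNReal.ofReal (η / 2) ≤ ENNReal.ofReal (1 / ρ ^ 2) * I := by
    have h3 : ENNReal.ofReal η ≤ ENNReal.ofReal (1 / ρ ^ 2) * I + ENNReal.ofReal (η / 2) := by
      refine hbad.trans (h1.trans ?_)
      gcongr
      have h4 : (2 : ℝ≥0∞) * (4 * Jm A B u) ≤ 2 * ENNReal.ofReal (η / 2) := by
        have h5 : (2 : ℝ≥0∞) = ENNReal.ofReal 2 := by norm_num
        calc (2 : ℝ≥0∞) * (4 * Jm A B u) = 8 * Jm A B u := by rw [← mul_assoc]; norm_num
          _ ≤ ENNReal.ofReal η := hJ
          _ = 2 * ENNReal.ofReal (η / 2) := by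
            rw [h5, ← ENNReal.ofReal_mul (by norm_num)]; congr 1; ring
      exact (ENNReal.mul_le_mul_iff_right (by norm_num) (by norm_num)).mp h4
    have h6 : ENNReal.ofReal η = ENNReal.ofReal (η / 2) + ENNReal.ofReal (η / 2) := by
      rw [← ENNReal.ofReal_add (by positivity) (by positivity)]; congr 1; ring
    rw [h6] at h3
    exact (ENNReal.add_le_add_iff_right ENNReal.ofReal_ne_top).mp h3
  have hP : 0 ≤ (ρp / D) ^ a := Real.rpow_nonneg (by positivity) a
  have hq : (ρp / D) ^ a * (ρ / D) ^ 2 * (1 / ρ ^ 2) = ρp ^ a / D ^ (a + 2) := by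
    rw [Real.div_rpow hρp.le hD0.le, Real.rpow_add hD0, Real.rpow_two]
    have hDa : D ^ a ≠ 0 := (Real.rpow_pos_of_pos hD0 a).ne'
    field_simp
  calc ENNReal.ofReal ((ρp / D) ^ a * (ρ / D) ^ 2)
      = ENNReal.ofReal (2 / η) * (ENNReal.ofReal ((ρp / D) ^ a * (ρ / D) ^ 2) *
          ENNReal.ofReal (η / 2)) := by
        rw [← ENNReal.ofReal_mul (by positivity), ← ENNReal.ofReal_mul (by positivity)]
        congr 1; field_simp
    _ ≤ ENNReal.ofReal (2 / η) * (ENNReal.ofReal ((ρp / D) ^ a * (ρ / D) ^ 2) *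
          (ENNReal.ofReal (1 / ρ ^ 2) * I)) := by gcongr
    _ = ENNReal.ofReal (2 / η) * (ENNReal.ofReal (ρp ^ a / D ^ (a + 2)) * I) := by
        rw [← mul_assoc (ENNReal.ofReal ((ρp / D) ^ a * (ρ / D) ^ 2)),
          ← ENNReal.ofReal_mul (by positivity), hq]
    _ ≤ _ := by
        gcongr
        have hmd : Measurable fun x => ENNReal.ofReal (Metric.infDist x A) :=
          ENNReal.measurable_ofReal.comp (Metric.continuous_infDist_pt A).measurable
        rw [hI, ← lintegral_const_mul _ hmd]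
        calc ∫⁻ x in B ∩ N, ENNReal.ofReal (ρp ^ a / D ^ (a + 2)) *
              ENNReal.ofReal (Metric.infDist x A)
            ≤ ∫⁻ x in B ∩ N, ENNReal.ofReal (Metric.infDist x A *
              (ρp ^ a / (max ρp (|x - u| / 2)) ^ (a + 2))) := by
              apply setLIntegral_mono' (hB.inter hNm)
              intro x hx
              have hx2 : |x - u| < 2 * D := hx.2
              rw [← ENNReal.ofReal_mul (by positivity), mul_comm]
              apply ENNReal.ofReal_le_ofReal
              apply mul_le_mul_of_nonneg_left _ Metric.infDist_nonneg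
              have hm : 0 < max ρp (|x - u| / 2) := lt_max_of_lt_left hρp
              apply div_le_div_of_nonneg_left (by positivity)
                (Real.rpow_pos_of_pos hm _)
              apply Real.rpow_le_rpow hm.le _ (by linarith)
              exact max_le (by linarith) (by linarith)
          _ ≤ _ := lintegral_mono_set inter_subset_left

theorem scale_term {a s : ℝ} (ha : 0 < a) (hs : 0 < s) (n k : ℕ)
    (h1 : (1 / 2 : ℝ) ^ n < s) (h2 : k < n → s ≤ (1 / 2 : ℝ) ^ (n - 1)) :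
    ENNReal.ofReal (((1 / 2 : ℝ) ^ k) ^ a / (max ((1 / 2 : ℝ) ^ k) s) ^ (a + 2)) ≤
      ENNReal.ofReal (1 / s ^ 2) * (if k < n then ENNReal.ofReal (1 / 4) ^ (n - 1 - k)
        else ENNReal.ofReal ((1 / 2 : ℝ) ^ a) ^ (k - n)) := by
  have hr : 0 < (1 / 2 : ℝ) ^ k := by positivity
  split_ifs with hk
  · have h3 := h2 hk
    have h4 : (1 / 2 : ℝ) ^ (n - 1) ≤ (1 / 2 : ℝ) ^ k :=
      pow_le_pow_of_le_one (by norm_num) (by norm_num) (by omega)
    rw [max_eq_left (h3.trans h4), Real.rpow_add hr, Real.rpow_two,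
      ← ENNReal.ofReal_pow (by norm_num), ← ENNReal.ofReal_mul (by positivity)]
    apply ENNReal.ofReal_le_ofReal
    have h5 : 0 < ((1 / 2 : ℝ) ^ k) ^ a := Real.rpow_pos_of_pos hr a
    have h6 : ((1 / 2 : ℝ) ^ k) ^ a / (((1 / 2 : ℝ) ^ k) ^ a * ((1 / 2 : ℝ) ^ k) ^ 2) =
        1 / ((1 / 2 : ℝ) ^ k) ^ 2 := by
      field_simp
    rw [h6]
    have h7 : ((1 / 4 : ℝ)) ^ (n - 1 - k) = ((1 / 2 : ℝ) ^ (n - 1)) ^ 2 / ((1 / 2 : ℝ) ^ k) ^ 2 := by
      have h8 : (1 / 2 : ℝ) ^ (n - 1) = (1 / 2 : ℝ) ^ (n - 1 - k) * (1 / 2 : ℝ) ^ k := by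
        rw [← pow_add]; congr 1; omega
      rw [h8, mul_pow, mul_div_assoc, div_self (by positivity), mul_one, ← pow_mul,
        mul_comm (n - 1 - k) 2, pow_mul]
      norm_num
    rw [h7, div_mul_div_comm, one_mul]
    rw [div_le_div_iff₀ (by positivity) (by positivity), one_mul]
    have h9 : s ^ 2 ≤ ((1 / 2 : ℝ) ^ (n - 1)) ^ 2 := pow_le_pow_left₀ hs.le h3 2
    have h10 : 0 < ((1 / 2 : ℝ) ^ k) ^ 2 := by positivity
    nlinarith
  · have hkn : n ≤ k := not_lt.mp hk
    have h3 : (1 / 2 : ℝ) ^ k ≤ (1 / 2 : ℝ) ^ n :=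
      pow_le_pow_of_le_one (by norm_num) (by norm_num) hkn
    rw [max_eq_right (h3.trans h1.le), Real.rpow_add hs, Real.rpow_two,
      ← ENNReal.ofReal_pow (Real.rpow_nonneg (by norm_num) a),
      ← ENNReal.ofReal_mul (by positivity)]
    apply ENNReal.ofReal_le_ofReal
    have h4 : (1 / 2 : ℝ) ^ k = (1 / 2 : ℝ) ^ (k - n) * (1 / 2 : ℝ) ^ n := by
      rw [← pow_add]; congr 1; omega
    have h5 : ((1 / 2 : ℝ) ^ k) ^ a ≤ ((1 / 2 : ℝ) ^ a) ^ (k - n) * s ^ a := by
      have h6 : ((1 / 2 : ℝ) ^ a) ^ (k - n) = ((1 / 2 : ℝ) ^ (k - n)) ^ a := by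
        rw [← Real.rpow_natCast, ← Real.rpow_mul (by norm_num), mul_comm, Real.rpow_mul
          (by norm_num), Real.rpow_natCast]
      rw [h6, ← Real.mul_rpow (by positivity) hs.le]
      apply Real.rpow_le_rpow hr.le _ ha.le
      rw [h4]
      gcongr
    have h7 : 0 < s ^ a := Real.rpow_pos_of_pos hs a
    rw [div_le_iff₀ (by positivity)]
    calc ((1 / 2 : ℝ) ^ k) ^ a ≤ ((1 / 2 : ℝ) ^ a) ^ (k - n) * s ^ a := h5
      _ = _ := by field_simp

/-- the constant of the sum over the dyadic depths. -/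
noncomputable def Ca (a : ℝ) : ℝ≥0∞ :=
  (1 - ENNReal.ofReal (1 / 4))⁻¹ + (1 - ENNReal.ofReal ((1 / 2 : ℝ) ^ a))⁻¹

theorem Ca_lt {a : ℝ} (ha : 0 < a) : Ca a < ∞ := by
  have h1 : ENNReal.ofReal (1 / 4) < 1 := by
    rw [ENNReal.ofReal_lt_one]; norm_num
  have h2 : ENNReal.ofReal ((1 / 2 : ℝ) ^ a) < 1 := by
    rw [ENNReal.ofReal_lt_one]
    exact Real.rpow_lt_one (by norm_num) (by norm_num) ha
  apply ENNReal.add_lt_top.mpr
  constructor
  · rw [ENNReal.inv_lt_top]; exact tsub_pos_of_lt h1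
  · rw [ENNReal.inv_lt_top]; exact tsub_pos_of_lt h2

theorem sum_scale {a s : ℝ} (ha : 0 < a) (hs : 0 < s) :
    ∑' k : ℕ, ENNReal.ofReal (((1 / 2 : ℝ) ^ k) ^ a / (max ((1 / 2 : ℝ) ^ k) s) ^ (a + 2)) ≤
      ENNReal.ofReal (1 / s ^ 2) * Ca a := by
  classical
  have hex : ∃ n : ℕ, (1 / 2 : ℝ) ^ n < s := exists_pow_lt_of_lt_one hs (by norm_num)
  set n := Nat.find hex with hn
  have h1 : (1 / 2 : ℝ) ^ n < s := Nat.find_spec hex
  have h2 : ∀ k, k < n → s ≤ (1 / 2 : ℝ) ^ (n - 1) := by
    intro k hk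
    have : ¬ (1 / 2 : ℝ) ^ (n - 1) < s := Nat.find_min hex (by omega)
    exact not_lt.mp this
  refine (ENNReal.tsum_le_tsum fun k => scale_term ha hs n k h1 (h2 k)).trans ?_
  rw [ENNReal.tsum_mul_left]
  gcongr
  rw [← Summable.sum_add_tsum_nat_add' (k := n) ENNReal.summable]
  unfold Ca
  gcongr
  · have h3 : ∀ k ∈ Finset.range n, (if k < n then ENNReal.ofReal (1 / 4) ^ (n - 1 - k)
        else ENNReal.ofReal ((1 / 2 : ℝ) ^ a) ^ (k - n)) = ENNReal.ofReal (1 / 4) ^ (n - 1 - k) := by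
      intro k hk
      rw [if_pos (Finset.mem_range.mp hk)]
    rw [Finset.sum_congr rfl h3, Finset.sum_range_reflect (fun k => ENNReal.ofReal (1 / 4) ^ k) n,
      ← ENNReal.tsum_geometric]
    exact ENNReal.sum_le_tsum _
  · have h3 : ∀ k : ℕ, (if k + n < n then ENNReal.ofReal (1 / 4) ^ (n - 1 - (k + n))
        else ENNReal.ofReal ((1 / 2 : ℝ) ^ a) ^ (k + n - n)) =
          ENNReal.ofReal ((1 / 2 : ℝ) ^ a) ^ k := by
      intro k
      rw [if_neg (by omega), Nat.add_sub_cancel]
    simp_rw [h3]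
    rw [ENNReal.tsum_geometric]

/-- **(P3), the sum over the dyadic depths of the worst bad penalty**, at every `u` with finite
Marcinkiewicz integral. -/
theorem beta_sum {A B : Set ℝ} {a u : ℝ} (ha : 0 < a) (hu : u ∈ A) :
    ∑' k : ℕ, ∫⁻ x in B, ENNReal.ofReal (Metric.infDist x A *
        (((1 / 2 : ℝ) ^ k) ^ a / (max ((1 / 2 : ℝ) ^ k) (|x - u| / 2)) ^ (a + 2))) ≤
      4 * Ca a * Jm A B u := by
  have hmeas : ∀ k : ℕ, Measurable fun x : ℝ => ENNReal.ofReal (Metric.infDist x A *
        (((1 / 2 : ℝ) ^ k) ^ a / (max ((1 / 2 : ℝ) ^ k) (|x - u| / 2)) ^ (a + 2))) := by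
    intro k
    apply ENNReal.measurable_ofReal.comp
    apply (Metric.continuous_infDist_pt A).measurable.mul
    apply Measurable.div measurable_const
    fun_prop
  rw [← lintegral_tsum fun k => (hmeas k).aemeasurable]
  unfold Jm
  rw [← lintegral_const_mul]
  · apply lintegral_mono
    intro x
    dsimp only
    have hd := Metric.infDist_nonneg (x := x) (s := A)
    simp_rw [ENNReal.ofReal_mul hd]
    rw [ENNReal.tsum_mul_left]
    rcases eq_or_ne x u with rfl | hx
    · rw [Metric.infDist_zero_of_mem hu]; simp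
    · have hs : 0 < |x - u| / 2 := by
        have := abs_pos.mpr (sub_ne_zero.mpr hx)
        linarith
      have h1 := sum_scale ha hs
      calc ENNReal.ofReal (Metric.infDist x A) * ∑' k : ℕ, ENNReal.ofReal
            (((1 / 2 : ℝ) ^ k) ^ a / (max ((1 / 2 : ℝ) ^ k) (|x - u| / 2)) ^ (a + 2))
          ≤ ENNReal.ofReal (Metric.infDist x A) *
            (ENNReal.ofReal (1 / (|x - u| / 2) ^ 2) * Ca a) := by gcongr
        _ = Ca a * ENNReal.ofReal (Metric.infDist x A * (1 / (|x - u| / 2) ^ 2)) := by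
          rw [ENNReal.ofReal_mul hd]; ring
        _ = 4 * Ca a * ENNReal.ofReal (Metric.infDist x A / (x - u) ^ 2) := by
          have h2 : Metric.infDist x A * (1 / (|x - u| / 2) ^ 2) =
              4 * (Metric.infDist x A / (x - u) ^ 2) := by
            rw [div_pow, sq_abs]
            have : (x - u) ≠ 0 := sub_ne_zero.mpr hx
            field_simp
            norm_num
          rw [h2, ENNReal.ofReal_mul (by norm_num)]
          have h3 : ENNReal.ofReal 4 = 4 := by norm_num
          rw [h3]; ring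
  · apply ENNReal.measurable_ofReal.comp
    apply Measurable.div
    · exact (Metric.continuous_infDist_pt A).measurable
    · fun_prop

end Vale.Agent.P097.H315.Marc
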