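import Mathlib

/-!
P097, (tan): the abstract pick lemma ((8') of the text).  `Z` is the set of windows, `ρ` the depth,
`D` the distance (in the application `D z z' = |z - z'| + ρ z + ρ z'`), `E` the size function,
`W a p z = exp (-Pen (p → z))`, `Pen = a log (D / ρ p) + 2 log (D / ρ z)`.
-/

open Set Filter Topology

namespace Vale.Agent.P097.H315.Pick

/-- windows with depth and distance. -/
structure Win (Z : Type*) where
  ρ : Z → ℝ
  D : Z → Z → ℝ
  pos : ∀ z, 0 < ρ z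
  left : ∀ z z', ρ z ≤ D z z'
  right : ∀ z z', ρ z' ≤ D z z'
  tri : ∀ z z' z'', D z z'' ≤ D z z' + D z' z''
  self : ∀ z, D z z ≤ 2 * ρ z

/-- the standard distance. -/
def Win.std {Z : Type*} [PseudoMetricSpace Z] (ρ : Z → ℝ) (pos : ∀ z, 0 < ρ z) : Win Z where
  ρ := ρ
  D z z' := dist z z' + ρ z + ρ z'
  pos := pos
  left z z' := by
    have := dist_nonneg (x := z) (y := z'); have := (pos z').le; linarith
  right z z' := by
    have := dist_nonneg (x := z) (y := z'); have := (pos z).le; linarith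
  tri z z' z'' := by
    have := dist_triangle z z' z''; have := (pos z').le; linarith
  self z := by simp; linarith

variable {Z : Type*} (w : Win Z) (a : ℝ)

/-- `exp (- Pen (p → z))`. -/
noncomputable def Win.W (p z : Z) : ℝ := (w.ρ p / w.D p z) ^ a * (w.ρ z / w.D p z) ^ 2

theorem Win.D_pos (p z : Z) : 0 < w.D p z := lt_of_lt_of_le (w.pos p) (w.left p z)

theorem Win.W_pos (p z : Z) : 0 < w.W a p z := by
  have h1 := w.pos p
  have h2 := w.pos z
  have h3 := w.D_pos p z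
  unfold Win.W
  exact mul_pos (Real.rpow_pos_of_pos (by positivity) a) (by positivity)

theorem Win.W_le_left (ha : 0 < a) (p z : Z) : w.W a p z ≤ (w.ρ p / w.D p z) ^ a := by
  have h1 := w.pos p
  have h2 := w.pos z
  have h3 := w.D_pos p z
  have h4 : w.ρ z / w.D p z ≤ 1 := (div_le_one h3).mpr (w.right p z)
  have h5 : (w.ρ z / w.D p z) ^ 2 ≤ 1 := pow_le_one₀ (by positivity) h4
  unfold Win.W
  exact mul_le_of_le_one_right (Real.rpow_nonneg (by positivity) a) h5

theorem Win.W_le_one (ha : 0 < a) (p z : Z) : w.W a p z ≤ 1 := by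
  have h1 := w.pos p
  have h3 := w.D_pos p z
  exact (w.W_le_left a ha p z).trans
    (Real.rpow_le_one (by positivity) ((div_le_one h3).mpr (w.left p z)) ha.le)

theorem Win.W_self (ha : 0 < a) (p : Z) : (1 / 2 : ℝ) ^ (a + 2) ≤ w.W a p p := by
  have h1 := w.pos p
  have h3 := w.D_pos p p
  have h4 : (1 / 2 : ℝ) ≤ w.ρ p / w.D p p := by
    rw [div_le_div_iff₀ (by norm_num) h3]
    have := w.self p
    linarith
  unfold Win.W
  rw [Real.rpow_add (by norm_num), Real.rpow_two]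
  exact mul_le_mul (Real.rpow_le_rpow (by norm_num) h4 ha.le)
    (pow_le_pow_left₀ (by norm_num) h4 2) (by positivity) (Real.rpow_nonneg (by positivity) a)

/-- formula with all powers collected. -/
theorem Win.W_eq (p z : Z) :
    w.W a p z = w.ρ p ^ a * w.ρ z ^ 2 / w.D p z ^ (a + 2) := by
  have h1 := w.pos p
  have h3 := w.D_pos p z
  unfold Win.W
  rw [Real.div_rpow h1.le h3.le, Real.rpow_add h3, Real.rpow_two]
  have h4 : w.D p z ^ a ≠ 0 := (Real.rpow_pos_of_pos h3 a).ne'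
  field_simp

/-- **quasi triangle inequality.** -/
theorem Win.qt (ha : 0 < a) (p z z' : Z) :
    w.W a p z * w.W a z z' ≤ 2 ^ (a + 2) * w.W a p z' := by
  have hp := w.pos p
  have hz := w.pos z
  have hz' := w.pos z'
  have d1 := w.D_pos p z
  have d2 := w.D_pos z z'
  have d3 := w.D_pos p z'
  have key : w.ρ z * w.D p z' ≤ 2 * (w.D p z * w.D z z') := by
    have h1 := w.right p z
    have h2 := w.left z z'
    have h3 := w.tri p z z'
    nlinarith
  rw [w.W_eq, w.W_eq, w.W_eq]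
  have e1 : w.ρ p ^ a * w.ρ z ^ 2 / w.D p z ^ (a + 2) *
      (w.ρ z ^ a * w.ρ z' ^ 2 / w.D z z' ^ (a + 2)) =
      w.ρ p ^ a * w.ρ z' ^ 2 * (w.ρ z / (w.D p z * w.D z z')) ^ (a + 2) := by
    rw [Real.div_rpow hz.le (by positivity), Real.mul_rpow d1.le d2.le,
      Real.rpow_add hz, Real.rpow_two]
    ring
  have e2 : 2 ^ (a + 2) * (w.ρ p ^ a * w.ρ z' ^ 2 / w.D p z' ^ (a + 2)) =
      w.ρ p ^ a * w.ρ z' ^ 2 * (2 / w.D p z') ^ (a + 2) := by
    rw [Real.div_rpow (by norm_num) d3.le]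
    ring
  rw [e1, e2]
  have h5 : 0 ≤ w.ρ p ^ a * w.ρ z' ^ 2 := by
    have := Real.rpow_nonneg hp.le a
    positivity
  apply mul_le_mul_of_nonneg_left _ h5
  apply Real.rpow_le_rpow (by positivity) _ (by linarith)
  rw [div_le_div_iff₀ (by positivity) d3]
  linarith

/-- `z` is a near maximiser of `E z * W p z`. -/
structure Win.Near (E : Z → ℝ) (p z : Z) : Prop where
  max : ∀ z', E z' * w.W a p z' ≤ 2 * (E z * w.W a p z)
  pos : 0 < E z

/-- existence of near maximisers. -/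
theorem Win.exists_near (ha : 0 < a) {E : Z → ℝ} (h0 : ∀ z, 0 ≤ E z) (h1 : ∀ z, E z ≤ 1)
    {p : Z} (hp : 0 < E p) : ∃ z, w.Near a E p z := by
  set S : Set ℝ := range fun z => E z * w.W a p z with hS
  have hb : BddAbove S := by
    refine ⟨1, ?_⟩
    rintro _ ⟨z, rfl⟩
    exact mul_le_one₀ (h1 z) (w.W_pos a p z).le (w.W_le_one a ha p z)
  have hne : S.Nonempty := ⟨_, p, rfl⟩
  have hpos : 0 < sSup S :=
    lt_of_lt_of_le (mul_pos hp (w.W_pos a p p)) (le_csSup hb ⟨p, rfl⟩)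
  obtain ⟨_, ⟨z, rfl⟩, hz⟩ := exists_lt_of_lt_csSup hne (half_lt_self hpos)
  refine ⟨z, fun z' => ?_, ?_⟩
  · have : E z' * w.W a p z' ≤ sSup S := le_csSup hb ⟨z', rfl⟩
    dsimp only at hz
    linarith
  · by_contra hn
    have h2 : E z = 0 := le_antisymm (not_lt.mp hn) (h0 z)
    dsimp only at hz
    rw [h2, zero_mul] at hz
    linarith

variable {w a} {E : Z → ℝ} {p z : Z}

/-- **(G)** growth of `E` seen from the near maximiser. -/
theorem Win.Near.growth (h : w.Near a E p z) (ha : 0 < a) (z' : Z) :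
    E z' ≤ 2 ^ (a + 3) * E z / w.W a z z' := by
  have h1 := h.max z'
  have h2 := w.qt a ha p z z'
  have h3 := w.W_pos a p z
  have h4 := w.W_pos a z z'
  have h5 := w.W_pos a p z'
  have hE := h.pos
  rw [le_div_iff₀ h4]
  have e : (2 : ℝ) ^ (a + 3) = 2 * 2 ^ (a + 2) := by
    rw [show a + 3 = (a + 2) + 1 by ring, Real.rpow_add (by norm_num), Real.rpow_one]
    ring
  rw [e]
  by_contra hc
  push Not at hc
  have h6 : 2 * 2 ^ (a + 2) * E z * w.W a p z' < E z' * w.W a z z' * w.W a p z' :=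
    mul_lt_mul_of_pos_right hc h5
  have h7 : E z' * w.W a z z' * w.W a p z' ≤ 2 * (E z * w.W a p z) * w.W a z z' := by
    nlinarith
  have h8 : 2 * (E z * w.W a p z) * w.W a z z' ≤ 2 * E z * (2 ^ (a + 2) * w.W a p z') := by
    have : 0 ≤ 2 * E z := by linarith
    nlinarith [mul_le_mul_of_nonneg_left h2 this]
  nlinarith

/-- the value at the base is controlled by the value at the pick. -/
theorem Win.Near.base (h : w.Near a E p z) (ha : 0 < a) (hp : 0 ≤ E p) :
    E p ≤ 2 ^ (a + 3) * (E z * w.W a p z) := by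
  have h1 := h.max p
  have h2 := w.W_self a ha p
  have e : (2 : ℝ) ^ (a + 3) = 2 * 2 ^ (a + 2) := by
    rw [show a + 3 = (a + 2) + 1 by ring, Real.rpow_add (by norm_num), Real.rpow_one]
    ring
  have h3 : (2 : ℝ) ^ (a + 2) * (1 / 2) ^ (a + 2) = 1 := by
    rw [← Real.mul_rpow (by norm_num) (by norm_num)]; norm_num
  have h4 : E p * (1 / 2 : ℝ) ^ (a + 2) ≤ 2 * (E z * w.W a p z) :=
    (mul_le_mul_of_nonneg_left h2 hp).trans h1
  have h5 : (0 : ℝ) < 2 ^ (a + 2) := by positivity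
  calc E p = 2 ^ (a + 2) * (E p * (1 / 2 : ℝ) ^ (a + 2)) := by
        rw [mul_comm (E p), ← mul_assoc, h3, one_mul]
    _ ≤ 2 ^ (a + 2) * (2 * (E z * w.W a p z)) := by gcongr
    _ = _ := by rw [e]; ring

/-- the pick is not bad. -/
theorem Win.Near.good (h : w.Near a E p z) (ha : 0 < a) (hp : 0 ≤ E p) (h1 : ∀ z, E z ≤ 1)
    {Bad : Set Z} {β : ℝ} (hβ : ∀ z ∈ Bad, w.W a p z ≤ β) (hE : 2 ^ (a + 3) * β < E p) :
    z ∉ Bad := by
  intro hz
  have h2 := h.base ha hp
  have h3 := hβ z hz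
  have h4 := w.W_pos a p z
  have h5 : E z * w.W a p z ≤ β := by
    have := h1 z
    have := h.pos
    nlinarith
  have h6 : (0 : ℝ) < 2 ^ (a + 3) := by positivity
  have := mul_le_mul_of_nonneg_left h5 h6.le
  linarith

/-- **(D)** the distance of the pick from the base. -/
theorem Win.Near.dist (h : w.Near a E p z) (ha : 0 < a) (hp : 0 < E p) (h1 : ∀ z, E z ≤ 1) :
    w.D p z ≤ w.ρ p * (2 ^ (a + 3) / E p) ^ (1 / a) := by
  have h2 := h.base ha hp.le
  have h3 := w.W_le_left a ha p z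
  have hρ := w.pos p
  have hD := w.D_pos p z
  have h4 : E p ≤ 2 ^ (a + 3) * (w.ρ p / w.D p z) ^ a := by
    refine h2.trans (mul_le_mul_of_nonneg_left ?_ (by positivity))
    have h5 := h1 z
    have h6 := h.pos
    have h7 := w.W_pos a p z
    nlinarith
  have h5 : (w.D p z / w.ρ p) ^ a ≤ 2 ^ (a + 3) / E p := by
    rw [le_div_iff₀ hp]
    have h6 : (w.ρ p / w.D p z) ^ a * (w.D p z / w.ρ p) ^ a = 1 := by
      rw [← Real.mul_rpow (by positivity) (by positivity)]
      have : w.ρ p / w.D p z * (w.D p z / w.ρ p) = 1 := by field_simp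
      rw [this, Real.one_rpow]
    have h7 : 0 ≤ (w.D p z / w.ρ p) ^ a := Real.rpow_nonneg (by positivity) a
    calc (w.D p z / w.ρ p) ^ a * E p
        ≤ (w.D p z / w.ρ p) ^ a * (2 ^ (a + 3) * (w.ρ p / w.D p z) ^ a) := by gcongr
      _ = 2 ^ (a + 3) * ((w.ρ p / w.D p z) ^ a * (w.D p z / w.ρ p) ^ a) := by ring
      _ = 2 ^ (a + 3) := by rw [h6, mul_one]
  have h8 : w.D p z / w.ρ p ≤ (2 ^ (a + 3) / E p) ^ (1 / a) := by
    have h9 := Real.rpow_le_rpow (Real.rpow_nonneg (by positivity) a) h5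
      (by positivity : 0 ≤ 1 / a)
    rwa [← Real.rpow_mul (by positivity), mul_one_div, div_self ha.ne', Real.rpow_one] at h9
  rw [div_le_iff₀ hρ] at h8
  linarith

/-- **(H)** decay above the pick, up to the scale of the distance from the base. -/
theorem Win.Near.above (h : w.Near a E p z) (ha : 0 < a) {C : ℝ} {z' : Z}
    (hD : w.D p z' ≤ C * w.D p z) :
    E z' ≤ 2 * C ^ (a + 2) * E z * (w.ρ z / w.ρ z') ^ 2 := by
  have h1 := h.max z'
  have hp := w.pos p
  have hz := w.pos z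
  have hz' := w.pos z'
  have d1 := w.D_pos p z
  have d2 := w.D_pos p z'
  have hC : 0 < C := by
    by_contra hc
    push Not at hc
    nlinarith
  rw [w.W_eq, w.W_eq] at h1
  have hpa : 0 < w.ρ p ^ a := Real.rpow_pos_of_pos hp a
  have hd1 : 0 < w.D p z ^ (a + 2) := Real.rpow_pos_of_pos d1 _
  have hd2 : 0 < w.D p z' ^ (a + 2) := Real.rpow_pos_of_pos d2 _
  have h2 : E z' ≤ 2 * E z * (w.ρ z / w.ρ z') ^ 2 * (w.D p z' ^ (a + 2) / w.D p z ^ (a + 2)) := by
    have h3 : E z' * (w.ρ p ^ a * w.ρ z' ^ 2 / w.D p z' ^ (a + 2)) *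
        (w.D p z' ^ (a + 2) / (w.ρ p ^ a * w.ρ z' ^ 2)) = E z' := by
      field_simp
    calc E z' = E z' * (w.ρ p ^ a * w.ρ z' ^ 2 / w.D p z' ^ (a + 2)) *
          (w.D p z' ^ (a + 2) / (w.ρ p ^ a * w.ρ z' ^ 2)) := h3.symm
      _ ≤ 2 * (E z * (w.ρ p ^ a * w.ρ z ^ 2 / w.D p z ^ (a + 2))) *
          (w.D p z' ^ (a + 2) / (w.ρ p ^ a * w.ρ z' ^ 2)) := by gcongr
      _ = _ := by field_simp
  have h4 : w.D p z' ^ (a + 2) / w.D p z ^ (a + 2) ≤ C ^ (a + 2) := by
    rw [div_le_iff₀ hd1, ← Real.mul_rpow hC.le d1.le]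
    exact Real.rpow_le_rpow d2.le hD (by linarith)
  have hE := h.pos
  calc E z' ≤ 2 * E z * (w.ρ z / w.ρ z') ^ 2 * (w.D p z' ^ (a + 2) / w.D p z ^ (a + 2)) := h2
    _ ≤ 2 * E z * (w.ρ z / w.ρ z') ^ 2 * C ^ (a + 2) := by gcongr
    _ = _ := by ring

/-- **BASE**: pigeonhole along the vertical. -/
theorem exists_base {ι : Type*} (s : Finset ι) (E w β : ι → ℝ) {c C : ℝ}
    (hE : c ≤ ∑ k ∈ s, E k) (hw : ∑ k ∈ s, (w k + C * β k) < c) :
    ∃ k ∈ s, w k + C * β k < E k := by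
  by_contra hn
  push Not at hn
  have := Finset.sum_le_sum hn
  linarith

end Vale.Agent.P097.H315.Pick
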